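import Vale.Agent.P363.Defs

/-!
# P363: working definitions (see `notes/P363.md` for the proof)

Real `H¹` functions on a finite-dimensional space `V` with derivatives along a finite family `e` of
directions.  `S e3` is `H¹(ℝ³)`, `S (eN n)` is `H¹(ℝ^{3n})`.
-/

open MeasureTheory Filter Topology Set
open scoped ContDiff

set_option linter.unusedSectionVars false

noncomputable section

namespace Vale.Agent.P363

section Generic

variable {V : Type} [NormedAddCommGroup V] [NormedSpace ℝ V] [FiniteDimensional ℝ V]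
  [MeasureSpace V] [BorelSpace V] [(volume : Measure V).IsAddHaarMeasure]
  {ι : Type} [Fintype ι]

/-- `g` is the weak derivative of `f` in the direction `w`. -/
def WD (w : V) (f g : V → ℝ) : Prop :=
  ∀ φ : V → ℝ, ContDiff ℝ ∞ φ → HasCompactSupport φ →
    ∫ x, fderiv ℝ φ x w * f x = -∫ x, φ x * g x

theorem int_test {φ f : V → ℝ} (h1 : Continuous φ) (h2 : HasCompactSupport φ)
    (hf : MemLp f 2 volume) : Integrable fun x => φ x * f x :=
  (h1.memLp_of_hasCompactSupport (p := 2) h2).integrable_mul hf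

theorem int_test' {φ f : V → ℝ} (w : V) (h1 : ContDiff ℝ ∞ φ) (h2 : HasCompactSupport φ)
    (hf : MemLp f 2 volume) : Integrable fun x => fderiv ℝ φ x w * f x :=
  int_test ((h1.continuous_fderiv (by simp)).clm_apply continuous_const)
    (h2.fderiv_apply ℝ w) hf

/-- Pairs (function, weak gradient) in `L²`. -/
def Sob (e : ι → V) : Submodule ℝ ((V → ℝ) × (ι → V → ℝ)) where
  carrier := {p | MemLp p.1 2 volume ∧ (∀ k, MemLp (p.2 k) 2 volume) ∧ ∀ k, WD (e k) p.1 (p.2 k)}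
  zero_mem' := ⟨MemLp.zero, fun _ => MemLp.zero, fun _ φ _ _ => by simp⟩
  add_mem' := by
    rintro p q ⟨a1, a2, a3⟩ ⟨b1, b2, b3⟩
    refine ⟨a1.add b1, fun k => (a2 k).add (b2 k), fun k φ h1 h2 => ?_⟩
    simp only [Prod.fst_add, Prod.snd_add, Pi.add_apply, mul_add]
    rw [integral_add (int_test' _ h1 h2 a1) (int_test' _ h1 h2 b1),
      integral_add (int_test h1.continuous h2 (a2 k)) (int_test h1.continuous h2 (b2 k)),
      a3 k φ h1 h2, b3 k φ h1 h2]
    ring
  smul_mem' := by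
    rintro c p ⟨a1, a2, a3⟩
    refine ⟨a1.const_smul c, fun k => (a2 k).const_smul c, fun k φ h1 h2 => ?_⟩
    simp only [Prod.smul_fst, Prod.smul_snd, Pi.smul_apply, smul_eq_mul, mul_left_comm _ c]
    rw [integral_const_mul, integral_const_mul, a3 k φ h1 h2]
    ring

/-- The space `H¹`. -/
def S (e : ι → V) : Type := Sob e

variable {e : ι → V}

instance : AddCommGroup (S e) := inferInstanceAs (AddCommGroup (Sob e))
instance : Module ℝ (S e) := inferInstanceAs (Module ℝ (Sob e))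

/-- The function. -/
def S.f (a : S e) : V → ℝ := (show Sob e from a).1.1
/-- The weak derivatives. -/
def S.g (a : S e) (k : ι) : V → ℝ := (show Sob e from a).1.2 k

theorem S.mem (a : S e) : MemLp a.f 2 volume := (show Sob e from a).2.1
theorem S.gmem (a : S e) (k : ι) : MemLp (a.g k) 2 volume := (show Sob e from a).2.2.1 k
theorem S.wd (a : S e) (k : ι) : WD (e k) a.f (a.g k) := (show Sob e from a).2.2.2 k

/-- Constructor. -/
def S.of {f : V → ℝ} {g : ι → V → ℝ} (h : (f, g) ∈ Sob e) : S e := (⟨(f, g), h⟩ : Sob e)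

theorem mem_Sob {f : V → ℝ} {g : ι → V → ℝ} : (f, g) ∈ Sob e ↔
    MemLp f 2 volume ∧ (∀ k, MemLp (g k) 2 volume) ∧ ∀ k, WD (e k) f (g k) := Iff.rfl

@[simp] theorem S.of_f {f : V → ℝ} {g : ι → V → ℝ} (h : (f, g) ∈ Sob e) : (S.of h).f = f := rfl
@[simp] theorem S.of_g {f : V → ℝ} {g : ι → V → ℝ} (h : (f, g) ∈ Sob e) (k : ι) :
    (S.of h).g k = g k := rfl
@[simp] theorem S.add_f (a b : S e) (x : V) : (a + b).f x = a.f x + b.f x := rfl
@[simp] theorem S.sub_f (a b : S e) (x : V) : (a - b).f x = a.f x - b.f x := rfl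
@[simp] theorem S.neg_f (a : S e) (x : V) : (-a).f x = -a.f x := rfl
@[simp] theorem S.smul_f (c : ℝ) (a : S e) (x : V) : (c • a).f x = c * a.f x := rfl
@[simp] theorem S.zero_f (x : V) : (0 : S e).f x = 0 := rfl
@[simp] theorem S.add_g (a b : S e) (k : ι) (x : V) : (a + b).g k x = a.g k x + b.g k x := rfl
@[simp] theorem S.sub_g (a b : S e) (k : ι) (x : V) : (a - b).g k x = a.g k x - b.g k x := rfl
@[simp] theorem S.neg_g (a : S e) (k : ι) (x : V) : (-a).g k x = -a.g k x := rfl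
@[simp] theorem S.smul_g (c : ℝ) (a : S e) (k : ι) (x : V) : (c • a).g k x = c * a.g k x := rfl
@[simp] theorem S.zero_g (k : ι) (x : V) : (0 : S e).g k x = 0 := rfl

/-- The `L²` inner product. -/
def ip (a b : S e) : ℝ := ∫ x, a.f x * b.f x
/-- The kinetic energy form. -/
def kin (a b : S e) : ℝ := 1 / 2 * ∑ k, ∫ x, a.g k x * b.g k x
/-- The potential energy form. -/
def pot (U : V → ℝ) (a b : S e) : ℝ := ∫ x, U x * (a.f x * b.f x)
/-- The form of `-½ Δ + U`. -/
def qf (U : V → ℝ) (a b : S e) : ℝ := kin a b + pot U a b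
/-- The squared `H¹` norm. -/
def hn (a : S e) : ℝ := ip a a + kin a a

/-- Smooth, compactly supported, with the classical gradient. -/
def Sm (a : S e) : Prop :=
  ContDiff ℝ ∞ a.f ∧ HasCompactSupport a.f ∧ ∀ k, a.g k = fun x => fderiv ℝ a.f x (e k)

/-- `U` is infinitesimally form bounded. -/
def FB (e : ι → V) (U : V → ℝ) : Prop :=
  AEStronglyMeasurable U volume ∧ ∀ ε : ℝ, 0 < ε → ∃ C : ℝ, 0 ≤ C ∧ ∀ a : S e,
    Integrable (fun x => U x * a.f x ^ 2) ∧ ∫ x, |U x| * a.f x ^ 2 ≤ ε * kin a a + C * ip a a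

/-- A `C¹` multiplier: bounded with bounded derivative. -/
def Mul1 (θ : V → ℝ) : Prop :=
  ContDiff ℝ 1 θ ∧ ∃ C : ℝ, ∀ x, |θ x| ≤ C ∧ ‖fderiv ℝ θ x‖ ≤ C

end Generic

/-- A symmetric bilinear function. -/
structure Bil {M : Type} [AddCommGroup M] [Module ℝ M] (B : M → M → ℝ) : Prop where
  symm : ∀ a b, B a b = B b a
  add : ∀ a b c, B (a + b) c = B a c + B b c
  smul : ∀ (t : ℝ) a b, B (t • a) b = t * B a b

/-- The coordinate directions of `ℝ³`. -/
def e3 (k : Fin 3) : E3 := EuclideanSpace.single k 1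

/-- The coordinate directions of configuration space. -/
def eN (n : ℕ) (p : Fin n × Fin 3) : Cfg n := dir p.1 p.2

/-- Reflection of the `k`-th coordinate. -/
def rf (k : Fin 3) (x : E3) : E3 := x - (2 * x k) • e3 k

/-- A family of `H¹(ℝ³)` functions with a parameter `y`, square integrable in both variables. -/
structure Fib {Y : Type} [MeasurableSpace Y] (ν : Measure Y) where
  F : E3 → Y → ℝ
  D : Fin 3 → E3 → Y → ℝ
  mF : MemLp (fun z : E3 × Y => F z.1 z.2) 2 (volume.prod ν)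
  mD : ∀ k, MemLp (fun z : E3 × Y => D k z.1 z.2) 2 (volume.prod ν)
  slice : ∀ᵐ y ∂ν, ((fun x => F x y), fun k x => D k x y) ∈ Sob e3

namespace Fib

variable {Y : Type} [MeasurableSpace Y] {ν : Measure Y}

/-- The density. -/
def n (A : Fib ν) (x : E3) : ℝ := ∫ y, A.F x y ^ 2 ∂ν
/-- Twice the kinetic energy density. -/
def tau (A : Fib ν) (x : E3) : ℝ := ∑ k, ∫ y, A.D k x y ^ 2 ∂ν
/-- Half the gradient of the density. -/
def J (A : Fib ν) (k : Fin 3) (x : E3) : ℝ := ∫ y, A.F x y * A.D k x y ∂ν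
/-- Integration against a function of `x`. -/
def red (A : Fib ν) (φ : E3 → ℝ) (y : Y) : ℝ := ∫ x, φ x * A.F x y
/-- The one-body density matrix as a form. -/
def gam (A : Fib ν) (φ χ : E3 → ℝ) : ℝ := ∫ y, A.red φ y * A.red χ y ∂ν
/-- The energy in the potential `U`. -/
def en (A : Fib ν) (U : E3 → ℝ) : ℝ := 1 / 2 * (∫ x, A.tau x) + ∫ x, U x * A.n x
/-- Four particles, at most two in each orbital. -/
def Four (A : Fib ν) : Prop :=
  ∫ x, A.n x = 4 ∧ ∀ φ : E3 → ℝ, MemLp φ 2 volume → A.gam φ φ ≤ 2 * ∫ x, φ x ^ 2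

end Fib

variable {n : ℕ}

/-- Antisymmetry in the slots `i`, `j`. -/
def Anti (i j : Fin n) (f : Cfg n → ℝ) : Prop := ∀ᵐ X : Cfg n, f (X ∘ Equiv.swap i j) = -f X

/-- Integration over slot `i` against a function of that slot. -/
def red (i : Fin (n + 1)) (φ : E3 → ℝ) (f : Cfg (n + 1) → ℝ) (Y : Cfg n) : ℝ :=
  ∫ x, φ x * f (Fin.insertNth i x Y)

/-- The squared norm of the projection onto the orbital `φ` in slot `i`. -/
def occ (i : Fin (n + 1)) (φ : E3 → ℝ) (f : Cfg (n + 1) → ℝ) : ℝ := ∫ Y, red i φ f Y ^ 2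

/-- Integration over all slots but `i`. -/
def pair (i : Fin (n + 1)) (f : Cfg (n + 1) → ℝ) (Ξ : Cfg n → ℝ) (x : E3) : ℝ :=
  ∫ Y, f (Fin.insertNth i x Y) * Ξ Y

/-- The density in slot `i`. -/
def rho (i : Fin (n + 1)) (f : Cfg (n + 1) → ℝ) (x : E3) : ℝ := ∫ Y : Cfg n, f (Fin.insertNth i x Y) ^ 2

/-- The kinetic energy form of slot `i`. -/
def kinI (i : Fin n) (a b : S (eN n)) : ℝ := 1 / 2 * ∑ k, ∫ X, a.g (i, k) X * b.g (i, k) X

/-- The electron repulsion. -/
def Wee (X : Cfg n) : ℝ := ∑ i, ∑ k ∈ Finset.Ioi i, 1 / ‖X i - X k‖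

/-- The hydrogen potential. -/
def V0 (x : E3) : ℝ := -(1 / ‖x‖)

/-- Two nuclei of charge one half at `± R e_z`. -/
def VR (R : ℝ) (x : E3) : ℝ := -(1 / 2 / ‖x - R • e3 2‖) - 1 / 2 / ‖x + R • e3 2‖

/-- The scaled potential energy. -/
def UN (R lam : ℝ) (X : Cfg n) : ℝ := ∑ i, VR R (X i) + lam * Wee X

/-- The heat kernel of `½ Δ`. -/
def Gk (t : ℝ) (x : E3) : ℝ := (2 * Real.pi * t) ^ (-(3 / 2) : ℝ) * Real.exp (-‖x‖ ^ 2 / (2 * t))

/-- The semigroup of `½ Δ - m`. -/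
def GT (m t : ℝ) (f : E3 → ℝ) (x : E3) : ℝ := Real.exp (-m * t) * ∫ y, Gk t (x - y) * f y

/-- The Japanese bracket. -/
def jb (x : E3) : ℝ := √(1 + ‖x‖ ^ 2)

/-- The hydrogen orbitals `1s, 2s, 2p_x, 2p_y, 2p_z` before normalisation. -/
def raw (j : Fin 5) (x : E3) : ℝ :=
  ![Real.exp (-‖x‖), (1 - ‖x‖ / 2) * Real.exp (-‖x‖ / 2), x 0 * Real.exp (-‖x‖ / 2),
    x 1 * Real.exp (-‖x‖ / 2), x 2 * Real.exp (-‖x‖ / 2)] j

/-- The normalisation constants. -/
def nrm (j : Fin 5) : ℝ := (√(∫ x, raw j x ^ 2))⁻¹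

/-- The hydrogen levels. -/
def lev (j : Fin 5) : ℝ := if j = 0 then -(1 / 2) else -(1 / 8)

end Vale.Agent.P363
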