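import Mathlib

/-!
# P363: definitions used in the statement
-/

open MeasureTheory

noncomputable section

namespace Vale.Agent.P363

/-- physical space `ℝ³` with the Euclidean norm -/
abbrev E3 : Type := EuclideanSpace ℝ (Fin 3)

/-- positions of `n` electrons -/
abbrev Cfg (n : ℕ) : Type := Fin n → E3

variable {n : ℕ}

/-- the `k`-th coordinate direction of the `i`-th electron -/
def dir (i : Fin n) (k : Fin 3) : Cfg n := Pi.single i (EuclideanSpace.single k 1)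

/-- `g i k` is the distributional derivative of `f` in the `k`-th coordinate of electron `i` -/
def IsWeakGrad (f : Cfg n → ℂ) (g : Fin n → Fin 3 → Cfg n → ℂ) : Prop :=
  ∀ φ : Cfg n → ℝ, ContDiff ℝ (⊤ : ℕ∞) φ → HasCompactSupport φ → ∀ (i : Fin n) (k : Fin 3),
    ∫ X, ((fderiv ℝ φ X (dir i k) : ℝ) : ℂ) * f X = -∫ X, (φ X : ℂ) * g i k X

/-- the form domain: antisymmetric `H¹` wave functions of `n` spin-1/2 particles, given with their
weak gradient -/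
structure H1 (n : ℕ) : Type where
  val : (Fin n → Fin 2) → Cfg n → ℂ
  grad : (Fin n → Fin 2) → Fin n → Fin 3 → Cfg n → ℂ
  val_mem : ∀ σ, MemLp (val σ) 2 volume
  grad_mem : ∀ σ i k, MemLp (grad σ i k) 2 volume
  weak : ∀ σ, IsWeakGrad (val σ) (grad σ)
  antisym : ∀ (π : Equiv.Perm (Fin n)) (σ : Fin n → Fin 2),
    ∀ᵐ X : Cfg n, val (σ ∘ π) (X ∘ π) = ((Equiv.Perm.sign π : ℤ) : ℂ) * val σ X

/-- spin-summed `|Ψ|²` -/
def dens (Ψ : H1 n) (X : Cfg n) : ℝ := ∑ σ, ‖Ψ.val σ X‖ ^ 2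

/-- squared `L²` norm -/
def normSq (Ψ : H1 n) : ℝ := ∫ X, dens Ψ X

/-- the closed quadratic form of `∑ᵢ -½ Δᵢ + U` -/
def form (U : Cfg n → ℝ) (Ψ : H1 n) : ℝ :=
  (1 / 2) * (∫ X, ∑ σ, ∑ i, ∑ k, ‖Ψ.grad σ i k X‖ ^ 2) + ∫ X, U X * dens Ψ X

/-- normalized ground state of `∑ᵢ -½ Δᵢ + U`: a normalized minimizer of the form -/
def IsGround (U : Cfg n → ℝ) (Ψ : H1 n) : Prop :=
  normSq Ψ = 1 ∧ ∀ Φ : H1 n, normSq Φ = 1 → form U Ψ ≤ form U Φ

/-- the spin-summed one-body density of a state of `n + 1` electrons -/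
def density (Ψ : H1 (n + 1)) (x : E3) : ℝ :=
  ∑ i : Fin (n + 1), ∫ Y : Cfg n, dens Ψ (Fin.insertNth i x Y)

/-- the potential energy of a Coulomb molecule with nuclear charges `Z j` at the points `R j` -/
def coulomb {M : ℕ} (Z : Fin M → ℕ) (R : Fin M → E3) (X : Cfg n) : ℝ :=
  -(∑ i, ∑ j, (Z j : ℝ) / ‖X i - R j‖) + ∑ i, ∑ k ∈ Finset.Ioi i, 1 / ‖X i - X k‖

/-- the class `L^{3/2} + L^∞` -/
def InV (v : E3 → ℝ) : Prop :=
  ∃ a b : E3 → ℝ, MemLp a (3 / 2) volume ∧ MemLp b ⊤ volume ∧ ∀ x, v x = a x + b x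

/-- `ρ` is the density of a ground-state ensemble `∑ₖ pₖ |Φₖ⟩⟨Φₖ|` of `n + 1` noninteracting
electrons in a potential of the class `L^{3/2} + L^∞` -/
def Representable (n : ℕ) (ρ : E3 → ℝ) : Prop :=
  ∃ v : E3 → ℝ, InV v ∧ ∃ (p : ℕ → ℝ) (Φ : ℕ → H1 (n + 1)), (∀ k, 0 ≤ p k) ∧ HasSum p 1 ∧
    (∀ k, IsGround (fun X => ∑ i, v (X i)) (Φ k)) ∧
    ∀ᵐ x : E3, ρ x = ∑' k, p k * density (Φ k) x

end Vale.Agent.P363
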