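import Vale.Agent.P363.A.Pauli
import Vale.Agent.P363.A.Fib2
import Vale.Agent.P363.H.Orb

/-!
# P363 Iface

Interfaces between the blocks H, M, X, K, F (no task).
-/

open MeasureTheory Filter Topology Set
open scoped ContDiff

set_option linter.unusedSectionVars false

noncomputable section

namespace Vale.Agent.P363

namespace Fib

variable {Y : Type} [MeasurableSpace Y] {ν : Measure Y} [SFinite ν]

/-- The `H¹` mass outside the span of the five orbitals. -/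
def defect (A : Fib ν) : ℝ := ∫ y, hn (rem (A.sl y)) ∂ν

end Fib

/-- The square root of `ρ` is comparable at infinity to a function with locally uniformly bounded
logarithmic gradient. -/
def NoNode (ρ : E3 → ℝ) : Prop :=
  ∃ (f : S e3) (c C : ℝ), 0 < c ∧ (∀ᵐ x, 0 ≤ f.f x) ∧
    (∀ᵐ x, 6 ≤ ‖x‖ → c * √(ρ x) ≤ f.f x ∧ f.f x ≤ C * √(ρ x)) ∧
    ∀ L : ℝ, 0 < L → ∃ K : ℝ, ∀ p : E3, L + 8 ≤ ‖p‖ → ∀ ε : ℝ, 0 < ε →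
      ∫ x in Metric.ball p L, ∑ k, (f.g k x / (f.f x + ε)) ^ 2 ≤ K

/-- What is known about the four-electron ground state `ψ` (slots `0, 1` spin up, slots `2, 3` spin
down) and the three-electron ground state `Φ` (slot `0` up, slots `1, 2` down). -/
structure Exact (R lam c C η : ℝ) (ψ : S (eN 4)) (Φ : S (eN 3)) (E₄ E₃ g : ℝ) : Prop where
  R_pos : 0 < R
  R_le : R ≤ η
  lam_pos : 0 < lam
  lam_le : lam ≤ η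
  nψ : ip ψ ψ = 1
  eψ : ∀ b, qf (UN R lam) ψ b = E₄ * ip ψ b
  a01 : Anti 0 1 ψ.f
  a23 : Anti 2 3 ψ.f
  sw : ∀ᵐ X : Cfg 4, ψ.f (X ∘ (Equiv.swap 0 2 * Equiv.swap 1 3 : Equiv.Perm (Fin 4))) = ψ.f X
  ev : ∀ k, ∀ᵐ X : Cfg 4, ψ.f (fun i => rf k (X i)) = ψ.f X
  min22 : ∀ b : S (eN 4), Anti 0 1 b.f → Anti 2 3 b.f → E₄ * ip b b ≤ qf (UN R lam) b b
  min31 : ∀ b : S (eN 4), Anti 0 1 b.f → Anti 1 2 b.f → E₄ * ip b b ≤ qf (UN R lam) b b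
  nΦ : ip Φ Φ = 1
  eΦ : ∀ b, qf (UN R lam) Φ b = E₃ * ip Φ b
  aΦ : Anti 1 2 Φ.f
  oΦ : ∀ᵐ Y : Cfg 3, Φ.f (fun i => rf 2 (Y i)) = -Φ.f Y
  g_pos : 0 < g
  gap : ∀ b : S (eN 3), Anti 1 2 b.f → E₃ * ip b b + g * (ip b b - ip Φ b ^ 2) ≤ qf (UN R lam) b b
  E43 : |E₃ - E₄ - 1 / 8| ≤ η
  E3_le : |E₃ + 9 / 8| ≤ η
  two : ∀ b : S (eN 2), (-1 - η) * ip b b ≤ qf (UN R lam) b b
  kinψ : kin ψ ψ ≤ C
  kinΦ : kin Φ Φ ≤ C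
  hyd : qf (fun X => ∑ i, V0 (X i)) ψ ψ ≤ -(5 / 4) + η
  occ_lo : c ≤ ∑ i, occ i (orb 1).f ψ.f
  occ_hi : ∑ i, occ i (orb 1).f ψ.f ≤ 1
  dys : ∃ b : ℝ, 1 / 2 ≤ |b| ∧ hn ((slotFib 0 ψ).pr Φ.mem - b • orb 4) ≤ η
  core : ∃ b : ℝ, 1 / 4 ≤ |b| ∧
    hn ((slotFib 0 ψ).pr (prd ![orb 4, orb 0, orb 4]).mem - b • orb 0) ≤ η

end Vale.Agent.P363
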